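import Vale.Agent.H19.Fox

/-!
Zero divisors in group algebras: pulling back the domain property along a homomorphism with
free kernel.
-/

namespace Vale.Agent.Results.P201.FreeKernel

/-- Let `φ : G → H` be a homomorphism of groups whose kernel is a free group (of any rank, possibly
trivial or infinite). If `K[H]` has no nonzero zero divisors, then `K[G]` has none. -/
theorem result {K : Type*} [CommRing K] {G H : Type*} [Group G] [Group H] (φ : G →* H)
    (hker : IsFreeGroup φ.ker)
    (hH : ∀ α β : MonoidAlgebra K H, α * β = 0 → α = 0 ∨ β = 0) :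
    ∀ α β : MonoidAlgebra K G, α * β = 0 → α = 0 ∨ β = 0 := by
  intro α β hαβ
  refine Vale.Agent.H19.noZeroDivisors_of_free_normal φ.ker ?_ α β hαβ
  intro x y hxy
  have hinj : Function.Injective (MonoidAlgebra.mapDomainRingHom K (QuotientGroup.kerLift φ)) := by
    have : (MonoidAlgebra.mapDomainRingHom K (QuotientGroup.kerLift φ) :
        MonoidAlgebra K (G ⧸ φ.ker) → MonoidAlgebra K H) =
        MonoidAlgebra.mapDomain (QuotientGroup.kerLift φ) := by
      ext x
      simp [MonoidAlgebra.mapDomainRingHom]
    rw [this]
    exact MonoidAlgebra.mapDomain_injective (QuotientGroup.kerLift_injective φ)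
  have h := hH (MonoidAlgebra.mapDomainRingHom K (QuotientGroup.kerLift φ) x)
    (MonoidAlgebra.mapDomainRingHom K (QuotientGroup.kerLift φ) y)
    (by rw [← map_mul, hxy, map_zero])
  rcases h with h | h
  · left
    exact hinj (by rw [h, map_zero])
  · right
    exact hinj (by rw [h, map_zero])

end Vale.Agent.Results.P201.FreeKernel
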